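import Vale.Agent.P240.R2.H401.DDefs

/-!
A quadratic extension of a finite field that contains a square root of a given element.
-/

set_option autoImplicit false

namespace Vale.Agent.P240.R2.H730

open Polynomial

universe u

theorem stmtDK : Vale.Agent.P240.R2.H401.D.StmtDK.{u} := by
  intro K _ _ d _
  let f : K[X] := X ^ 2 - C d
  have hdeg : f.degree ≠ 0 := by
    have h : f.degree = ((2 : ℕ) : WithBot ℕ) := degree_X_pow_sub_C (by norm_num) d
    rw [h]
    norm_num
  have hfin : Finite f.SplittingField := Module.finite_of_finite K
  have hs : (f.map (algebraMap K f.SplittingField)).Splits := SplittingField.splits f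
  have hd' : (f.map (algebraMap K f.SplittingField)).degree ≠ 0 := by
    rw [degree_map]
    exact hdeg
  obtain ⟨δ, hδ⟩ := hs.exists_eval_eq_zero hd'
  refine ⟨f.SplittingField, inferInstance, Fintype.ofFinite _, algebraMap K f.SplittingField, δ, ?_⟩
  have h2 : (f.map (algebraMap K f.SplittingField)).eval δ
      = δ ^ 2 - algebraMap K f.SplittingField d := by
    simp [f]
  rw [h2] at hδ
  exact sub_eq_zero.mp hδ

end Vale.Agent.P240.R2.H730
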